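import Vale.Agent.P032.S5.H767.Raw

/-!
# P032: unit triangles (helper703)

`Tri z p q φ`: `p = pt z φ`, `q = pt z (φ + 1)` (units of 60 degrees): `z, p, q` is a positively
oriented unit triangle.  The lattice points on the three circles, and which of them coincide.
-/

open Set Filter Topology Metric

noncomputable section

namespace Vale.Agent.P032.H703

open Vale.Agent.P032.Six Vale.Agent.P032.S5.H767

/-- the points at the same direction on two circles -/
theorem pt_shift (z w : ℂ) (s : ℝ) : pt w s = w + (pt z s - z) := by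
  unfold pt; ring

theorem dist_pt_pt (z w : ℂ) (s : ℝ) : dist (pt z s) (pt w s) = dist z w := by
  rw [pt_shift z w s, dist_eq_norm, dist_eq_norm]
  congr 1; ring

theorem pt_two (z : ℂ) (s : ℝ) : pt z (s + 2) = pt z (s + 1) + z - pt z s := by
  have := pt_sum z s
  linear_combination this

/-- a positively oriented unit triangle -/
structure Tri (z p q : ℂ) (φ : ℝ) : Prop where
  hp : p = pt z φ
  hq : q = pt z (φ + 1)

namespace Tri

variable {z p q : ℂ} {φ : ℝ}

theorem zp (t : Tri z p q φ) : pt z φ = p := t.hp.symm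
theorem zq (t : Tri z p q φ) : pt z (φ + 1) = q := t.hq.symm

theorem z2 (t : Tri z p q φ) : pt z (φ + 2) = q + z - p := by
  rw [pt_two, t.zp, t.zq]

theorem z3 (t : Tri z p q φ) : pt z (φ + 3) = 2 * z - p := by
  rw [pt_three, t.zp]

theorem z4 (t : Tri z p q φ) : pt z (φ + 4) = 2 * z - q := by
  have : φ + 4 = φ + 1 + 3 := by ring
  rw [this, pt_three, t.zq]

theorem z5 (t : Tri z p q φ) : pt z (φ + 5) = z + p - q := by
  have : φ + 5 = φ + 2 + 3 := by ring
  rw [this, pt_three, t.z2]; ring

theorem p0 (t : Tri z p q φ) : pt p φ = 2 * p - z := by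
  rw [pt_shift z p, t.zp]; ring

theorem p1 (t : Tri z p q φ) : pt p (φ + 1) = p + q - z := by
  rw [pt_shift z p, t.zq]; ring

theorem pq (t : Tri z p q φ) : pt p (φ + 2) = q := by
  rw [pt_shift z p, t.z2]; ring

theorem pz (t : Tri z p q φ) : pt p (φ + 3) = z := by
  rw [pt_shift z p, t.z3]; ring

theorem p4 (t : Tri z p q φ) : pt p (φ + 4) = z + p - q := by
  rw [pt_shift z p, t.z4]; ring

theorem p5 (t : Tri z p q φ) : pt p (φ + 5) = 2 * p - q := by
  rw [pt_shift z p, t.z5]; ring

theorem q0 (t : Tri z p q φ) : pt q φ = p + q - z := by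
  rw [pt_shift z q, t.zp]; ring

theorem q1 (t : Tri z p q φ) : pt q (φ + 1) = 2 * q - z := by
  rw [pt_shift z q, t.zq]; ring

theorem q2 (t : Tri z p q φ) : pt q (φ + 2) = 2 * q - p := by
  rw [pt_shift z q, t.z2]; ring

theorem q3 (t : Tri z p q φ) : pt q (φ + 3) = q + z - p := by
  rw [pt_shift z q, t.z3]; ring

theorem qz (t : Tri z p q φ) : pt q (φ + 4) = z := by
  rw [pt_shift z q, t.z4]; ring

theorem qp (t : Tri z p q φ) : pt q (φ + 5) = p := by
  rw [pt_shift z q, t.z5]; ring

theorem dzp (t : Tri z p q φ) : dist z p = 1 := by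
  rw [dist_comm, t.hp]; exact dist_pt z φ

theorem dzq (t : Tri z p q φ) : dist z q = 1 := by
  rw [dist_comm, t.hq]; exact dist_pt z _

theorem dpq (t : Tri z p q φ) : dist p q = 1 := by
  rw [t.hp, t.hq]; exact dist_pt_one z φ

/-- rotation of the triangle -/
theorem rot (t : Tri z p q φ) : Tri p q z (φ + 2) :=
  ⟨t.pq.symm, by rw [show φ + 2 + 1 = φ + 3 by ring]; exact t.pz.symm⟩

theorem rot' (t : Tri z p q φ) : Tri q z p (φ + 4) :=
  ⟨t.qz.symm, by rw [show φ + 4 + 1 = φ + 5 by ring]; exact t.qp.symm⟩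

end Tri

/-- the two points at distance one from `z` and from `pt z φ` -/
theorem apex {z q : ℂ} {φ : ℝ} (h1 : dist q z = 1) (h2 : dist q (pt z φ) = 1) :
    q = pt z (φ + 1) ∨ q = pt z (φ - 1) := by
  obtain ⟨s, rfl⟩ : ∃ s, q = pt z s := by
    refine ⟨Complex.arg (q - z) / (Real.pi / 3), ?_⟩
    unfold pt cis
    have hn : ‖q - z‖ = 1 := by rw [← dist_eq_norm]; exact h1
    have := Complex.norm_mul_exp_arg_mul_I (q - z)
    rw [hn] at this
    have h3 : Complex.arg (q - z) / (Real.pi / 3) * (Real.pi / 3) = Complex.arg (q - z) := by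
      field_simp
    rw [h3]
    push_cast at this
    rw [one_mul] at this
    rw [this]; ring
  -- `|e(s) - e(φ)| = 1`
  have e1 : pt z s - z = cis (s * (Real.pi / 3)) := by unfold pt; ring
  have e2 : pt z φ - z = cis (φ * (Real.pi / 3)) := by unfold pt; ring
  set x := pt z s - z with hx
  set y := pt z φ - z with hy
  have nx : Complex.normSq x = 1 := by
    rw [Complex.normSq_eq_norm_sq, hx, ← dist_eq_norm, h1]; norm_num
  have ny : Complex.normSq y = 1 := by
    rw [Complex.normSq_eq_norm_sq, hy, ← dist_eq_norm, dist_pt]; norm_num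
  have nxy : Complex.normSq (x - y) = 1 := by
    rw [Complex.normSq_eq_norm_sq, show x - y = pt z s - pt z φ by rw [hx, hy]; ring,
      ← dist_eq_norm, h2]; norm_num
  have k1 : pt z (φ + 1) - z = y * (⟨1 / 2, √3 / 2⟩ : ℂ) := by
    rw [pt_one, e2]; ring
  have k2 : pt z (φ - 1) - z = y * (⟨1 / 2, -(√3 / 2)⟩ : ℂ) := by
    unfold pt
    rw [show (φ - 1) * (Real.pi / 3) = φ * (Real.pi / 3) + -(Real.pi / 3) by ring, cis_add,
      cis_neg_third, e2]; ring
  have h3 : √3 * √3 = 3 := Real.mul_self_sqrt (by norm_num)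
  have hs3 : (√3 : ℝ) ≠ 0 := by positivity
  rw [Complex.normSq_apply] at nx ny nxy
  simp only [Complex.sub_re, Complex.sub_im] at nxy
  -- dot product and cross product
  have hdot : x.re * y.re + x.im * y.im = 1 / 2 := by linarith
  have hcr : (x.im * y.re - x.re * y.im) ^ 2 = (√3 / 2) ^ 2 := by
    have : (x.im * y.re - x.re * y.im) ^ 2 + (x.re * y.re + x.im * y.im) ^ 2 =
      (x.re * x.re + x.im * x.im) * (y.re * y.re + y.im * y.im) := by ring
    rw [nx, ny, hdot] at this
    nlinarith
  rcases sq_eq_sq_iff_eq_or_eq_neg.1 hcr with h | h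
  · left
    have : x = y * (⟨1 / 2, √3 / 2⟩ : ℂ) := by
      apply Complex.ext
      · simp only [Complex.mul_re]
        linear_combination (-x.re) * ny + y.re * hdot - y.im * h
      · simp only [Complex.mul_im]
        linear_combination (-x.im) * ny + y.im * hdot + y.re * h
    have h5 : pt z s - z = pt z (φ + 1) - z := by rw [k1]; exact this
    linear_combination h5
  · right
    have : x = y * (⟨1 / 2, -(√3 / 2)⟩ : ℂ) := by
      apply Complex.ext
      · simp only [Complex.mul_re]
        linear_combination (-x.re) * ny + y.re * hdot - y.im * h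
      · simp only [Complex.mul_im]
        linear_combination (-x.im) * ny + y.im * hdot + y.re * h
    have h5 : pt z s - z = pt z (φ - 1) - z := by rw [k2]; exact this
    linear_combination h5

/-- every unit triangle has this form, after exchanging two vertices -/
theorem exists_tri {z p q : ℂ} (hzp : dist z p = 1) (hzq : dist z q = 1) (hpq : dist p q = 1) :
    ∃ φ, Tri z p q φ ∨ Tri z q p φ := by
  have h1 : dist p z = 1 := by rw [dist_comm]; exact hzp
  have h2 : dist q z = 1 := by rw [dist_comm]; exact hzq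
  obtain ⟨φ, hφ⟩ : ∃ s, p = pt z s := by
    refine ⟨Complex.arg (p - z) / (Real.pi / 3), ?_⟩
    unfold pt cis
    have hn : ‖p - z‖ = 1 := by rw [← dist_eq_norm]; exact h1
    have := Complex.norm_mul_exp_arg_mul_I (p - z)
    rw [hn] at this
    have h3 : Complex.arg (p - z) / (Real.pi / 3) * (Real.pi / 3) = Complex.arg (p - z) := by
      field_simp
    rw [h3]
    push_cast at this
    rw [one_mul] at this
    rw [this]; ring
  rcases apex (z := z) (q := q) (φ := φ) h2 (by rw [← hφ, dist_comm]; exact hpq) with h | h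
  · exact ⟨φ, Or.inl ⟨hφ, h⟩⟩
  · exact ⟨φ - 1, Or.inr ⟨h, by rw [sub_add_cancel]; exact hφ⟩⟩

end Vale.Agent.P032.H703
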