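import Vale.Agent.P032.H383.Alt
import Vale.Agent.P032.S5.H767.Let

/-!
# P032: unit triangles of two-pair points, all of them mixed

`V = (ab | cd)`, `y1`, `y2` on the circle of `V`, not opposite, with the palettes `{a, c, e, f}` and
`{b, d, e, f}`; the common pairs are no pairs of `y1`, `y2`: impossible (`mix703`).  Near `V` the circle
`S(y1)` carries only `b`, `d`, the circle `S(y2)` only `a`, `c`; but two circles through a two-pair point
alternate (`H383.alt`).
-/

open Set Filter Topology Metric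

noncomputable section

namespace Vale.Agent.P032.H703

open Vale.Agent.P032.Six Vale.Agent.P032.S5.H767 Vale.Agent.P032.H383

variable {U : Fin 6 → Set ℂ} {T : ℂ → Set (Fin 6)} {V y y1 y2 : ℂ} {a b c d e f p q m n : Fin 6}

/-- near `V` the circle `S(y)` has one of the colours outside `T y`, if each pair of `y` has a colour
outside `T V` -/
theorem near_free703 (h : Irr U T) (hy : DPt T y p m q n) (nd : [p, m, q, n, b, d].Nodup)
    (hm : m ∉ T V) (hn : n ∉ T V) :
    ∀ᶠ w in 𝓝[sphere y 1] V, b ∈ T w ∨ d ∈ T w := by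
  have C : Ctr U T y p m q n b d :=
    ⟨h, hy.pal, nd, fun x hx hloc hsub => h.twoPairs hy x hx hloc hsub⟩
  filter_upwards [mem_nhdsWithin_of_mem_nhds (h.nhd V), self_mem_nhdsWithin] with w h1 h2
  obtain ⟨l, hl⟩ := C.cover (y := w) h2
  have h3 := Lt_col h hl
  fin_cases l
  · exact Or.inl (h3 rfl)
  · exact Or.inr (h3 rfl)
  · exact absurd (h1 (h3 (Or.inr rfl))) hm
  · exact absurd (h1 (h3 (Or.inr rfl))) hn

/-- **all mixed**: the pairs of `y1` are `{a, m1}`, `{c, n1}`, those of `y2` are `{b, m2}`, `{d, n2}`, the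
colours `m1, n1, m2, n2` are not at `V = (ab | cd)` -/
theorem mix703 (h : Irr U T) (hV : DPt T V a b c d) (nd : [a, b, c, d, e, f].Nodup)
    (h1 : dist y1 V = 1) (h2 : dist y2 V = 1) (h12 : y1 ≠ y2) (h12' : y1 + y2 ≠ 2 * V)
    (hy1 : DPt T y1 a e c f ∨ DPt T y1 a f c e) (hy2 : DPt T y2 b e d f ∨ DPt T y2 b f d e) :
    False := by
  simp only [List.nodup_cons, List.mem_cons, List.not_mem_nil, or_false, not_or, List.nodup_nil,
    and_true, not_false_eq_true] at nd
  obtain ⟨⟨ab, ac, ad, ae, af⟩, ⟨bc, bd, be, bf⟩, ⟨cd, ce, cf⟩, ⟨de, df⟩, ef⟩ := nd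
  have he : e ∉ T V := by
    rw [hV.pal]
    simp only [mem_insert_iff, mem_singleton_iff, not_or]
    exact ⟨Ne.symm ae, Ne.symm be, Ne.symm ce, Ne.symm de⟩
  have hf : f ∉ T V := by
    rw [hV.pal]
    simp only [mem_insert_iff, mem_singleton_iff, not_or]
    exact ⟨Ne.symm af, Ne.symm bf, Ne.symm cf, Ne.symm df⟩
  have s1 := Ne.symm ab
  have s2 := Ne.symm ac
  have s3 := Ne.symm ad
  have s4 := Ne.symm ae
  have s5 := Ne.symm af
  have s6 := Ne.symm bc
  have s7 := Ne.symm bd
  have s8 := Ne.symm be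
  have s9 := Ne.symm bf
  have s10 := Ne.symm cd
  have s11 := Ne.symm ce
  have s12 := Ne.symm cf
  have s13 := Ne.symm de
  have s14 := Ne.symm df
  have s15 := Ne.symm ef
  have H1 : ∀ᶠ w in 𝓝[sphere y1 1] V, b ∈ T w ∨ d ∈ T w := by
    rcases hy1 with hy | hy
    · exact near_free703 h hy (by simp [*]) he hf
    · exact near_free703 h hy (by simp [*]) hf he
  have H2 : ∀ᶠ w in 𝓝[sphere y2 1] V, a ∈ T w ∨ c ∈ T w := by
    rcases hy2 with hy | hy
    · exact near_free703 h hy (by simp [*]) he hf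
    · exact near_free703 h hy (by simp [*]) hf he
  have a1 : a ∈ T y1 := by
    rcases hy1 with hy | hy
    · rw [hy.pal]; exact Or.inl rfl
    · rw [hy.pal]; exact Or.inl rfl
  have c1 : c ∈ T y1 := by
    rcases hy1 with hy | hy
    · rw [hy.pal]; simp
    · rw [hy.pal]; simp
  exact alt h (hV.swap12.swap34) h1 h2 (Ne.symm h12) (by rwa [add_comm]) a1 c1 H1 H2

end Vale.Agent.P032.H703
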